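import Mathlib

/-! Unimodular lattices with a short characteristic vector: definitions. -/

open Complex Matrix Real

noncomputable section

namespace Vale.Agent.P267T

variable {m : ℕ}

/-- The quadratic form. -/
def qf (A : Matrix (Fin m) (Fin m) ℤ) (x : Fin m → ℤ) : ℤ := x ⬝ᵥ A *ᵥ x

/-- A positive definite unimodular lattice with a shortest characteristic vector of norm the
rank. -/
structure Un (A : Matrix (Fin m) (Fin m) ℤ) (w : Fin m → ℤ) : Prop where
  symm : A.IsSymm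
  det : IsUnit A.det
  pos : ∀ x, x ≠ 0 → 0 < qf A x
  norm : qf A w = m
  char : ∀ x, ∃ n : ℕ, qf A x - x ⬝ᵥ A *ᵥ w = 2 * n

/-- The real matrix. -/
def rm (A : Matrix (Fin m) (Fin m) ℤ) : Matrix (Fin m) (Fin m) ℝ := A.map Int.cast

/-- The theta series. -/
def th (A : Matrix (Fin m) (Fin m) ℤ) (τ : ℂ) : ℂ :=
  ∑' x : Fin m → ℤ, cexp (π * I * τ * qf A x)

/-- The theta series of the shadow. -/
def sh (A : Matrix (Fin m) (Fin m) ℤ) (w : Fin m → ℤ) (τ : ℂ) : ℂ :=
  ∑' x : Fin m → ℤ, cexp (π * I * τ * (((qf A x - x ⬝ᵥ A *ᵥ w : ℤ) : ℂ) + m / 4))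

/-- The upper half plane. -/
def HP : Set ℂ := {τ | 0 < τ.im}

end Vale.Agent.P267T
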