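import Vale.Agent.P267T.TB

/-! Unimodular lattices: behaviour at the cusp. -/

open Complex Matrix Real Filter Topology MeasureTheory

noncomputable section

namespace Vale.Agent.P267T

variable {m : ℕ} {A : Matrix (Fin m) (Fin m) ℤ} {w : Fin m → ℤ}

theorem TDh_norm (τ : ℂ) (r : ℝ) : ‖cexp (π * I * τ * r)‖ = rexp (-(π * τ.im) * r) := by
  rw [Complex.norm_exp]
  congr 1
  simp

theorem TDh_norm' (τ : ℂ) (r : ℤ) : ‖cexp (π * I * τ * r)‖ = rexp (-(π * τ.im) * r) := by
  have := TDh_norm τ r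
  rwa [Complex.ofReal_intCast] at this

theorem TDh_one (h : Un A w) {x : Fin m → ℤ} (hx : x ≠ 0) : (1 : ℝ) ≤ qf A x := by
  have : (1 : ℤ) ≤ qf A x := h.pos x hx
  exact_mod_cast this

theorem TDh_split (h : Un A w) {τ : ℂ} (hτ : 0 < τ.im) :
    th A τ - 1 = ∑' x : Fin m → ℤ, if x = 0 then 0 else cexp (π * I * τ * qf A x) := by
  have hs : Summable fun x : Fin m → ℤ => cexp (π * I * τ * qf A x) := by
    refine Summable.of_norm ?_
    simp only [TDh_norm']
    exact h.summ_th (mul_pos Real.pi_pos hτ)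
  rw [th, hs.tsum_eq_add_tsum_ite 0]
  simp [qf]

theorem Un.th_le (h : Un A w) : ∃ C : ℝ, ∀ τ : ℂ, 1 ≤ τ.im →
    ‖th A τ - 1‖ ≤ C * rexp (-π * τ.im) := by
  refine ⟨rexp π * ∑' x : Fin m → ℤ, rexp (-π * qf A x), fun τ hτ => ?_⟩
  rw [TDh_split h (by linarith)]
  refine tsum_of_norm_bounded (((h.summ_th Real.pi_pos).hasSum.mul_left _).mul_right _)
    fun x => ?_
  split_ifs with hx
  · rw [norm_zero]
    positivity
  · rw [TDh_norm', ← Real.exp_add, ← Real.exp_add, Real.exp_le_exp]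
    have h1 := TDh_one h hx
    have h2 := mul_nonneg Real.pi_pos.le (mul_nonneg (sub_nonneg.2 h1) (sub_nonneg.2 hτ))
    nlinarith

theorem Un.sh_le (h : Un A w) : ∃ C : ℝ, ∀ τ : ℂ, 1 ≤ τ.im →
    ‖sh A w τ‖ ≤ C * rexp (-π * (m / 4) * τ.im) := by
  refine ⟨∑' x : Fin m → ℤ, rexp (-π * ((qf A x - x ⬝ᵥ A *ᵥ w : ℤ) : ℝ)), fun τ hτ => ?_⟩
  refine tsum_of_norm_bounded ((h.summ_sh Real.pi_pos).hasSum.mul_right _) fun x => ?_
  obtain ⟨n, hn⟩ := h.char x
  have e : (((qf A x - x ⬝ᵥ A *ᵥ w : ℤ) : ℂ) + m / 4) =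
      ((((qf A x - x ⬝ᵥ A *ᵥ w : ℤ) : ℝ) + m / 4 : ℝ) : ℂ) := by
    push_cast
    ring
  rw [e, TDh_norm, ← Real.exp_add, Real.exp_le_exp, hn]
  have h1 : (0 : ℝ) ≤ ((2 * n : ℤ) : ℝ) := by positivity
  have h2 := mul_nonneg Real.pi_pos.le (mul_nonneg h1 (sub_nonneg.2 hτ))
  nlinarith

theorem Un.fin (h : Un A w) : {x | qf A x = 1}.Finite := by
  have h1 := (h.summ_th one_pos).tendsto_cofinite_zero.eventually
    (gt_mem_nhds (Real.exp_pos (-1)))
  refine (Filter.eventually_cofinite.1 h1).subset fun x hx => ?_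
  have hx' : qf A x = 1 := hx
  simp [hx']

theorem Un.th_lim (h : Un A w) : Tendsto (fun t : ℝ => cexp (π * t) * (th A (I * t) - 1)) atTop
    (𝓝 ({x | qf A x = 1}.ncard : ℂ)) := by
  classical
  have hg : ∑' x : Fin m → ℤ, (if qf A x = 1 then (1 : ℂ) else 0) =
      ({x | qf A x = 1}.ncard : ℂ) := by
    rw [tsum_eq_sum (s := h.fin.toFinset) (fun x hx => if_neg (by simpa using hx)),
      Set.ncard_eq_toFinset_card _ h.fin, Finset.card_eq_sum_ones]
    push_cast
    exact Finset.sum_congr rfl fun x hx => if_pos (by simpa using hx)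
  have key := tendsto_tsum_of_dominated_convergence (𝓕 := (atTop : Filter ℝ))
    (f := fun (t : ℝ) (x : Fin m → ℤ) =>
      if x = 0 then (0 : ℂ) else ((rexp (-(π * ((qf A x : ℝ) - 1) * t)) : ℝ) : ℂ))
    (g := fun x => if qf A x = 1 then (1 : ℂ) else 0)
    ((h.summ_th Real.pi_pos).mul_left (rexp π)) (fun x => ?_) ?_
  · rw [hg] at key
    refine key.congr' ?_
    filter_upwards [eventually_gt_atTop 0] with t ht
    rw [TDh_split h (by simpa using ht), ← tsum_mul_left]
    refine tsum_congr fun x => ?_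
    split_ifs with hx
    · simp
    · rw [← Complex.exp_add, Complex.ofReal_exp]
      congr 1
      push_cast
      linear_combination (-(π : ℂ) * t * qf A x) * Complex.I_mul_I
  · by_cases hx : x = 0
    · subst hx
      simp [qf]
    · simp only [if_neg hx]
      by_cases h1 : qf A x = 1
      · simp [h1]
      · rw [if_neg h1, ← Complex.ofReal_zero]
        refine (Complex.continuous_ofReal.tendsto 0).comp ?_
        refine Real.tendsto_exp_neg_atTop_nhds_zero.comp (Tendsto.const_mul_atTop ?_ tendsto_id)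
        have h2 : (1 : ℝ) ≠ qf A x := fun e => h1 (by exact_mod_cast e.symm)
        exact mul_pos Real.pi_pos (sub_pos.2 (lt_of_le_of_ne (TDh_one h hx) h2))
  · filter_upwards [eventually_ge_atTop 1] with t ht x
    split_ifs with hx
    · rw [norm_zero]
      positivity
    · rw [Complex.norm_real, Real.norm_eq_abs, abs_of_pos (Real.exp_pos _), ← Real.exp_add,
        Real.exp_le_exp]
      have h1 := TDh_one h hx
      have h2 := mul_nonneg Real.pi_pos.le (mul_nonneg (sub_nonneg.2 h1) (sub_nonneg.2 ht))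
      nlinarith

end Vale.Agent.P267T
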