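import Vale.Agent.P267T.TF

/-! Unimodular lattices: the theta series under inversion. -/

open Complex Matrix Real Filter Topology MeasureTheory

noncomputable section

namespace Vale.Agent.P267T

variable {m : ℕ} {A : Matrix (Fin m) (Fin m) ℤ} {w : Fin m → ℤ}

theorem THh_ne {τ : ℂ} (hτ : τ ∈ HP) : τ ≠ 0 := by
  rintro rfl
  exact lt_irrefl (0 : ℝ) hτ

theorem THh_re {τ : ℂ} (hτ : τ ∈ HP) : 0 < (I / τ).re := by
  have h : 0 < τ.im := hτ
  have h2 : 0 < normSq τ := normSq_pos.2 (THh_ne hτ)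
  rw [div_re]
  simp only [I_re, I_im, zero_mul, zero_div, one_mul, zero_add]
  positivity

theorem THh_neg {τ : ℂ} (hτ : τ ∈ HP) : -(π : ℂ) / (I / τ) = π * I * τ := by
  have := THh_ne hτ
  field_simp
  rw [I_sq]

theorem Un.th_inv (h : Un A w) {τ : ℂ} (hτ : τ ∈ HP) :
    th A (-1 / τ) = (τ / I) ^ (m / 2 : ℂ) * th A τ := by
  have h1 := h.fe (THh_re hτ) 0
  rw [one_div_div, THh_neg hτ] at h1
  simp only [sub_zero, rm_quad, mulVec_zero, dotProduct_zero, ofReal_zero, mul_zero, add_zero,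
    ofReal_intCast] at h1
  rw [th, th]
  refine Eq.trans (tsum_congr fun x => ?_) h1
  congr 1
  ring

theorem Un.sh_inv (h : Un A w) {τ : ℂ} (hτ : τ ∈ HP) :
    th A (1 - 1 / τ) = (τ / I) ^ (m / 2 : ℂ) * sh A w τ := by
  have h1 := h.fe (THh_re hτ) fun i => (w i : ℝ) / 2
  rw [one_div_div, THh_neg hτ] at h1
  simp only [h.half] at h1
  rw [th, sh]
  refine Eq.trans (tsum_congr fun x => ?_) (h1.trans ?_)
  · have e : (fun i => (w i : ℝ) / 2) = (1 / 2 : ℝ) • fun i => (w i : ℝ) := by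
      funext i
      simp only [Pi.smul_apply, smul_eq_mul]
      ring
    obtain ⟨n, hn⟩ := h.char x
    have hn' : (qf A x : ℂ) = (x ⬝ᵥ A *ᵥ w : ℤ) + 2 * n := by
      rw [← sub_eq_iff_eq_add', ← Int.cast_sub, hn]
      push_cast
      ring
    rw [e, mulVec_smul, dotProduct_smul, rm_quad]
    refine Eq.trans ?_ ((congrArg _ (exp_nat_mul_two_pi_mul_I n)).trans (mul_one _))
    rw [← Complex.exp_add]
    congr 1
    rw [hn', smul_eq_mul]
    push_cast
    ring
  · congr 1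
    refine tsum_congr fun x => ?_
    congr 2
    push_cast
    ring

theorem fac_pow (m : ℕ) {τ : ℂ} (hτ : τ ∈ HP) : ((τ / I) ^ (m / 2 : ℂ)) ^ 8 = τ ^ (4 * m) := by
  rw [← Complex.cpow_nat_mul, show ((8 : ℕ) : ℂ) * (m / 2) = (4 * m : ℕ) by push_cast; ring,
    cpow_natCast, div_pow, pow_mul I, I_pow_four, one_pow, div_one]

end Vale.Agent.P267T
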