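import Vale.Agent.P267T.Defs

/-! Unimodular lattices: vectors of norm one. -/

open Complex Matrix Real Filter Topology MeasureTheory

noncomputable section

namespace Vale.Agent.P267T

variable {m : ℕ} {A : Matrix (Fin m) (Fin m) ℤ} {w : Fin m → ℤ}

theorem TLh_one (x : Fin m → ℤ) : qf (1 : Matrix (Fin m) (Fin m) ℤ) x = ∑ i, x i * x i := by
  rw [qf, one_mulVec, dotProduct]

theorem TLh_even (z : ℤ) : ∃ n : ℕ, z * z - z = 2 * n := by
  obtain ⟨k, hk⟩ := Int.even_mul_pred_self z
  have h0 : 0 ≤ z * (z - 1) := by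
    rcases le_or_gt z 0 with h | h
    · exact mul_nonneg_of_nonpos_of_nonpos h (by omega)
    · exact mul_nonneg h.le (by omega)
  refine ⟨k.toNat, ?_⟩
  rw [Int.toNat_of_nonneg (by omega)]
  linarith

theorem TLh_comm (h : A.IsSymm) (x y : Fin m → ℤ) : x ⬝ᵥ A *ᵥ y = y ⬝ᵥ A *ᵥ x := by
  rw [dotProduct_mulVec, ← mulVec_transpose, h.eq, dotProduct_comm]

theorem TLh_neg (x : Fin m → ℤ) : qf A (-x) = qf A x := by
  simp [qf, mulVec_neg]

theorem TLh_orth (h : Un A w) {x y : Fin m → ℤ} (hx : qf A x = 1) (hy : qf A y = 1)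
    (h1 : x ≠ y) (h2 : x ≠ -y) : x ⬝ᵥ A *ᵥ y = 0 := by
  have a := h.pos (x - y) (sub_ne_zero.2 h1)
  have b := h.pos (x + y) fun k => h2 (eq_neg_of_add_eq_zero_left k)
  have c := TLh_comm h.symm y x
  simp only [qf, mulVec_sub, mulVec_add, sub_dotProduct, add_dotProduct, dotProduct_sub,
    dotProduct_add] at a b hx hy
  omega

theorem un_one (m : ℕ) : Un (1 : Matrix (Fin m) (Fin m) ℤ) 1 := by
  refine ⟨isSymm_one, by simp, fun x hx => ?_, by simp [TLh_one], fun x => ?_⟩
  · obtain ⟨i, hi⟩ := Function.ne_iff.1 hx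
    rw [TLh_one]
    exact Finset.sum_pos' (fun j _ => mul_self_nonneg _)
      ⟨i, Finset.mem_univ _, mul_self_pos.2 hi⟩
  · choose n hn using fun i => TLh_even (x i)
    refine ⟨∑ i, n i, ?_⟩
    rw [TLh_one, one_mulVec, dotProduct, ← Finset.sum_sub_distrib, Nat.cast_sum, Finset.mul_sum]
    exact Finset.sum_congr rfl fun i _ => by rw [← hn i, Pi.one_apply, mul_one]

theorem card_one (m : ℕ) : {x | qf (1 : Matrix (Fin m) (Fin m) ℤ) x = 1}.ncard = 2 * m := by
  classical
  let f : Fin m × ℤˣ → Fin m → ℤ := fun p => Pi.single p.1 p.2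
  have h1 : {x | qf (1 : Matrix (Fin m) (Fin m) ℤ) x = 1} = Set.range f := by
    ext x
    simp only [Set.mem_setOf_eq, TLh_one]
    constructor
    · intro hx
      obtain ⟨i, -, hi⟩ := Finset.exists_ne_zero_of_sum_ne_zero (hx ▸ one_ne_zero)
      rw [← Finset.add_sum_erase _ _ (Finset.mem_univ i)] at hx
      have h2 : 0 ≤ ∑ j ∈ Finset.univ.erase i, x j * x j :=
        Finset.sum_nonneg fun j _ => mul_self_nonneg _
      have h3 : 0 < x i * x i := lt_of_le_of_ne (mul_self_nonneg _) hi.symm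
      have h4 : ∑ j ∈ Finset.univ.erase i, x j * x j = 0 := by omega
      have h5 : x i * x i = 1 := by omega
      refine ⟨(i, ⟨x i, x i, h5, h5⟩), funext fun j => ?_⟩
      by_cases k : j = i
      · subst k
        exact Pi.single_eq_same _ _
      · rw [show f _ j = 0 from Pi.single_eq_of_ne k _]
        exact (mul_self_eq_zero.1 ((Finset.sum_eq_zero_iff_of_nonneg
          fun j _ => mul_self_nonneg _).1 h4 j (by simp [k]))).symm
    · rintro ⟨⟨i, u⟩, rfl⟩
      rw [Finset.sum_eq_single i (fun j _ k => by simp [f, k]) (by simp)]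
      simp [f, ← Units.val_mul]
  have h2 : Function.Injective f := by
    rintro ⟨i, u⟩ ⟨j, v⟩ k
    have k1 := congrFun k i
    by_cases e : i = j
    · subst e
      simp only [f, Pi.single_eq_same] at k1
      rw [Units.ext k1]
    · simp [f, e] at k1
  rw [h1, ← Set.image_univ, Set.ncard_image_of_injective _ h2, Set.ncard_univ, Nat.card_prod,
    Nat.card_eq_fintype_card, Nat.card_eq_fintype_card, Fintype.card_fin, Fintype.card_units_int,
    mul_comm]

theorem Un.basis (h : Un A w) (hf : {x | qf A x = 1}.Finite)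
    (hc : {x | qf A x = 1}.ncard = 2 * m) :
    ∃ P : Matrix (Fin m) (Fin m) ℤ, IsUnit P.det ∧ Pᵀ * A * P = 1 ∧ P *ᵥ 1 = w := by
  classical
  set S := {x | qf A x = 1}
  let T : Set (Fin m → ℤ) := {x ∈ S | toLex 0 < toLex x}
  have hT : T.Finite := hf.subset fun _ k => k.1
  have neg : ∀ x : Fin m → ℤ, toLex 0 < toLex (-x) ↔ toLex x < toLex 0 := fun x =>
    neg_pos (a := toLex x)
  have h1 : S = T ∪ Neg.neg '' T := by
    ext x
    constructor
    · intro hx
      rcases lt_trichotomy (toLex (0 : Fin m → ℤ)) (toLex x) with k | k | k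
      · exact .inl ⟨hx, k⟩
      · obtain rfl : 0 = x := toLex.injective k
        exact absurd (show qf A 0 = 1 from hx) (by simp [qf])
      · exact .inr ⟨-x, ⟨(TLh_neg x).trans hx, (neg x).2 k⟩, neg_neg x⟩
    · rintro (k | ⟨y, k, rfl⟩)
      · exact k.1
      · exact (TLh_neg y).trans k.1
  have h2 : ∀ x ∈ T, ∀ y ∈ T, x ≠ -y := fun x hx y hy k =>
    lt_asymm hy.2 ((neg y).1 (k ▸ hx.2))
  have h3 : T.ncard = m := by
    have hd : Disjoint T (Neg.neg '' T) :=
      Set.disjoint_left.2 fun x hx ⟨y, hy, k⟩ => h2 x hx y hy k.symm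
    rw [h1, Set.ncard_union_eq hd hT (hT.image _),
      Set.ncard_image_of_injective _ neg_injective] at hc
    omega
  have := hT.to_subtype
  let e : Fin m ≃ T := (Finite.equivFinOfCardEq (Nat.card_coe_set_eq T ▸ h3)).symm
  let P : Matrix (Fin m) (Fin m) ℤ := of fun i j => (e j).1 i
  have h4 : ∀ (i) (y : Fin m → ℤ), (Pᵀ *ᵥ y) i = (e i).1 ⬝ᵥ y := fun i y => rfl
  have h5 : Pᵀ * A * P = 1 := by
    ext i j
    have : (Pᵀ * A * P) i j = (e i).1 ⬝ᵥ A *ᵥ (e j).1 := by
      rw [Matrix.mul_assoc]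
      rfl
    rw [this]
    by_cases k : i = j
    · subst k
      rw [one_apply_eq]
      exact (e i).2.1
    · rw [one_apply_ne k]
      exact TLh_orth h (e i).2.1 (e j).2.1 (fun k' => k (e.injective (Subtype.ext k')))
        (h2 _ (e i).2 _ (e j).2)
  have h6 : P * (Pᵀ * A) = 1 := mul_eq_one_comm.1 h5
  let v : Fin m → ℤ := Pᵀ *ᵥ A *ᵥ w
  have h7 : ∀ i, v i * v i = 1 := fun i => by
    obtain ⟨n, hn⟩ := h.char (e i).1
    obtain ⟨n', hn'⟩ := h.char (-(e i).1)
    rw [TLh_neg, neg_dotProduct] at hn'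
    rw [show qf A (e i).1 = 1 from (e i).2.1, ← h4] at hn hn'
    change 1 - v i = _ at hn
    change 1 - -v i = _ at hn'
    have : v i = 1 ∨ v i = -1 := by omega
    rcases this with k | k <;> rw [k] <;> rfl
  have h8 : diagonal v * diagonal v = 1 := by
    rw [diagonal_mul_diagonal, funext h7, diagonal_one]
  refine ⟨P * diagonal v, ?_, ?_, ?_⟩
  · rw [det_mul]
    exact (isUnit_det_of_right_inverse h6).mul (isUnit_det_of_right_inverse h8)
  · rw [transpose_mul, diagonal_transpose, Matrix.mul_assoc (diagonal v), Matrix.mul_assoc,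
      ← Matrix.mul_assoc (Pᵀ * A), h5, Matrix.one_mul, h8]
  · have : diagonal v *ᵥ 1 = v := funext fun i => by rw [mulVec_diagonal, Pi.one_apply, mul_one]
    rw [← mulVec_mulVec, this, mulVec_mulVec, mulVec_mulVec, Matrix.mul_assoc, h6, one_mulVec]

end Vale.Agent.P267T
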