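import Vale.Agent.P267T.TM

/-! Unimodular lattices: the norm. -/

open Complex Matrix Real Filter Topology MeasureTheory

noncomputable section

namespace Vale.Agent.P267T

variable {m : ℕ} {A : Matrix (Fin m) (Fin m) ℤ} {w : Fin m → ℤ}

theorem TNh_ne {τ : ℂ} (h : τ ∈ HP) : τ ≠ 0 := by
  rintro rfl
  simp [HP] at h

theorem TNh_inv {τ : ℂ} (h : τ ∈ HP) : -1 / τ ∈ HP := by
  have h0 : 0 < normSq τ := normSq_pos.2 (TNh_ne h)
  have h1 : 0 < τ.im := h
  show 0 < (-1 / τ).im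
  rw [neg_div, one_div, neg_im, inv_im, neg_div, neg_neg]
  positivity

theorem TNh_add {τ : ℂ} (h : τ ∈ HP) (r : ℝ) : τ + r ∈ HP := by
  simpa [HP] using h

theorem norm_zero (k : ℕ) {D E : ℂ → ℂ} (hD : DifferentiableOn ℂ D HP)
    (hE : DifferentiableOn ℂ E HP) (h1 : ∀ τ, D (τ + 2) = D τ)
    (h2 : ∀ τ, E (τ + 1) ^ 8 = E τ ^ 8)
    (h3 : ∀ τ ∈ HP, D (-1 / τ) ^ 8 = τ ^ (4 * k) * D τ ^ 8)
    (h4 : ∀ τ ∈ HP, D (1 - 1 / τ) ^ 8 = τ ^ (4 * k) * E τ ^ 8) {C : ℝ}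
    (h5 : ∀ τ : ℂ, 1 ≤ τ.im → ‖D τ‖ ≤ C * rexp (-π * τ.im))
    (h6 : ∀ τ : ℂ, 1 ≤ τ.im → ‖E τ‖ ≤ C * rexp (-π * (k / 4) * τ.im)) :
    ∀ τ ∈ HP, D τ = 0 := by
  have ho : IsOpen HP := isOpen_lt continuous_const continuous_im
  have hc : IsPreconnected HP := (convex_halfSpace_im_gt 0).isPreconnected
  have a1 : ∀ τ ∈ HP, τ + 1 ∈ HP := fun τ h => by simpa using TNh_add h 1
  have a2 : ∀ τ ∈ HP, τ - 1 ∈ HP := fun τ h => by simpa [sub_eq_add_neg] using TNh_add h (-1)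
  have hD' : DifferentiableOn ℂ (fun τ => D (τ + 1)) HP :=
    hD.comp (differentiableOn_id.add_const 1) a1
  have hF := level_one k (F := fun τ => (D τ * D (τ + 1) * E τ) ^ 8) (((hD.mul hD').mul hE).pow 8)
    (fun τ _ => by
      rw [add_assoc, one_add_one_eq_two, h1, mul_pow, mul_pow, h2]
      ring)
    (fun τ h => by
      have h0 := TNh_ne h
      have e1 := h4 _ (TNh_inv h)
      have e2 : (1 : ℂ) - 1 / (-1 / τ) = τ + 1 := by field_simp; ring
      have e3 : (-1 / τ) ^ (4 * k) * τ ^ (4 * k) = 1 := by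
        rw [← mul_pow, div_mul_cancel₀ _ h0, pow_mul]
        norm_num
      have e4 : E (-1 / τ) ^ 8 = τ ^ (4 * k) * D (τ + 1) ^ 8 := by
        rw [← e2, e1, ← mul_assoc, mul_comm (τ ^ _), e3, one_mul]
      rw [mul_pow, mul_pow, h3 τ h, show -1 / τ + 1 = 1 - 1 / τ by ring, h4 τ h, e4]
      ring) (C := C ^ 24) fun τ h => by
      have b1 := h5 τ h
      have b2 := h5 (τ + 1) (by simpa using h)
      have b3 := h6 τ h
      rw [add_im, one_im, add_zero] at b2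
      have b0 := (norm_nonneg _).trans b1
      have hC : 0 ≤ C := nonneg_of_mul_nonneg_left b0 (Real.exp_pos _)
      rw [norm_pow, norm_mul, norm_mul]
      refine (pow_le_pow_left₀ (by positivity) (mul_le_mul (mul_le_mul b1 b2 (norm_nonneg _) b0) b3
        (norm_nonneg _) (mul_nonneg b0 b0)) 8).trans ?_
      rw [show C * rexp (-π * τ.im) * (C * rexp (-π * τ.im)) * (C * rexp (-π * (k / 4) * τ.im)) =
        C ^ 3 * rexp (-π * τ.im + -π * τ.im + -π * (k / 4) * τ.im) by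
          rw [Real.exp_add, Real.exp_add]; ring, mul_pow, ← pow_mul, ← Real.exp_nat_mul]
      refine mul_le_mul_of_nonneg_left (Real.exp_le_exp.2 ?_) (by positivity)
      have := mul_pos Real.pi_pos (one_pos.trans_le h)
      push_cast
      nlinarith
  rcases (((hD.mul hD').analyticOnNhd ho).eq_zero_or_eq_zero_of_mul_eq_zero (hE.analyticOnNhd ho)
    (fun τ h => pow_eq_zero_iff (by norm_num) |>.1 (hF τ h)) hc) with h | h
  · rcases ((hD.analyticOnNhd ho).eq_zero_or_eq_zero_of_mul_eq_zero (hD'.analyticOnNhd ho) h hc)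
      with h | h
    · exact h
    · exact fun τ hτ => by simpa using h _ (a2 τ hτ)
  · intro σ hσ
    have h0 := TNh_ne (a2 σ hσ)
    have e := h4 _ (TNh_inv (a2 σ hσ))
    rw [h _ (TNh_inv (a2 σ hσ)), show (1 : ℂ) - 1 / (-1 / (σ - 1)) = σ by field_simp; ring] at e
    exact pow_eq_zero_iff (n := 8) (by norm_num) |>.1 (by simpa using e)

end Vale.Agent.P267T
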