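import Vale.Agent.P267T.TC
import Vale.Agent.P267T.TD
import Vale.Agent.P267T.TH
import Vale.Agent.P267T.TN
import Vale.Agent.P267T.TL

/-! The theorem of Elkies. -/

open Complex Matrix Real Filter Topology

noncomputable section

namespace Vale.Agent.P267T

variable {m : ℕ} {A : Matrix (Fin m) (Fin m) ℤ} {w : Fin m → ℤ}

theorem Un.th_eq (h : Un A w) : ∀ τ ∈ HP, th A τ - th (1 : Matrix (Fin m) (Fin m) ℤ) τ = 0 := by
  have g := un_one m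
  obtain ⟨C1, a1⟩ := h.th_le
  obtain ⟨C2, a2⟩ := g.th_le
  obtain ⟨C3, a3⟩ := h.sh_le
  obtain ⟨C4, a4⟩ := g.sh_le
  refine norm_zero m (E := fun τ => sh A w τ - sh (1 : Matrix (Fin m) (Fin m) ℤ) 1 τ)
    (h.th_hol.sub g.th_hol) (h.sh_hol.sub g.sh_hol) (fun τ => by rw [th_two, th_two])
    (fun τ => ?_) (fun τ hτ => ?_) (fun τ hτ => ?_) (C := max (C1 + C2) (C3 + C4))
    (fun τ hτ => ?_) fun τ hτ => ?_
  · rw [h.sh_one, g.sh_one, ← mul_sub, mul_pow, ← Complex.exp_nat_mul,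
      show ((8 : ℕ) : ℂ) * (π * I * m / 4) = m * (2 * π * I) by push_cast; ring,
      Complex.exp_nat_mul_two_pi_mul_I, one_mul]
  · rw [h.th_inv hτ, g.th_inv hτ, ← mul_sub, mul_pow, fac_pow m hτ]
  · rw [h.sh_inv hτ, g.sh_inv hτ, ← mul_sub, mul_pow, fac_pow m hτ]
  · rw [← sub_sub_sub_cancel_right _ _ (1 : ℂ)]
    refine (norm_sub_le _ _).trans ((add_le_add (a1 τ hτ) (a2 τ hτ)).trans ?_)
    rw [← add_mul]
    exact mul_le_mul_of_nonneg_right (le_max_left _ _) (Real.exp_pos _).le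
  · refine (norm_sub_le _ _).trans ((add_le_add (a3 τ hτ) (a4 τ hτ)).trans ?_)
    rw [← add_mul]
    exact mul_le_mul_of_nonneg_right (le_max_right _ _) (Real.exp_pos _).le

theorem Un.elkies (h : Un A w) :
    ∃ P : Matrix (Fin m) (Fin m) ℤ, IsUnit P.det ∧ Pᵀ * A * P = 1 ∧ P *ᵥ 1 = w := by
  refine h.basis h.fin ?_
  rw [← card_one m]
  have e := tendsto_nhds_unique_of_eventuallyEq h.th_lim (un_one m).th_lim (by
    filter_upwards [eventually_gt_atTop 0] with t ht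
    rw [sub_eq_zero.1 (h.th_eq (I * t) (by simpa [HP] using ht))])
  exact_mod_cast e

theorem elkies (A : Matrix (Fin m) (Fin m) ℤ) (hs : A.IsSymm) (hu : IsUnit A.det)
    (hp : ∀ x, x ≠ 0 → 0 < x ⬝ᵥ A *ᵥ x) (w : Fin m → ℤ) (hw : w ⬝ᵥ A *ᵥ w = m)
    (hc : ∀ x, ∃ n : ℤ, 0 ≤ n ∧ x ⬝ᵥ A *ᵥ x - x ⬝ᵥ A *ᵥ w = 2 * n) :
    ∃ P : Matrix (Fin m) (Fin m) ℤ, IsUnit P.det ∧ Pᵀ * A * P = 1 ∧ P *ᵥ 1 = w :=
  Un.elkies ⟨hs, hu, hp, hw, fun x => by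
    obtain ⟨n, h0, h1⟩ := hc x
    lift n to ℕ using h0
    exact ⟨n, h1⟩⟩

end Vale.Agent.P267T
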