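import Vale.Agent.P267T.Defs

/-! Unimodular lattices: the real form. -/

open Complex Matrix Real Filter Topology MeasureTheory

noncomputable section

namespace Vale.Agent.P267T

variable {m : ℕ} {A : Matrix (Fin m) (Fin m) ℤ} {w : Fin m → ℤ}

theorem rm_quad (A : Matrix (Fin m) (Fin m) ℤ) (x y : Fin m → ℤ) :
    (fun i => (x i : ℝ)) ⬝ᵥ rm A *ᵥ (fun i => (y i : ℝ)) = (x ⬝ᵥ A *ᵥ y : ℤ) := by
  simp [dotProduct, mulVec, rm]

theorem TAh_cont (B : Matrix (Fin m) (Fin m) ℝ) :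
    Continuous fun x : Fin m → ℝ => x ⬝ᵥ B *ᵥ x := by
  simp only [dotProduct, mulVec]
  fun_prop

theorem TAh_nonneg (h : Un A w) (x : Fin m → ℝ) : 0 ≤ x ⬝ᵥ rm A *ᵥ x := by
  have hd : DenseRange (Pi.map fun (_ : Fin m) (q : ℚ) => (q : ℝ)) :=
    DenseRange.piMap fun _ => Rat.denseRange_cast
  refine hd.induction_on (p := fun x => 0 ≤ x ⬝ᵥ rm A *ᵥ x) x
    (isClosed_le continuous_const (TAh_cont _)) fun q => ?_
  obtain ⟨b, hb⟩ := IsLocalization.exist_integer_multiples_of_finite (nonZeroDivisors ℤ) q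
  choose z hz using hb
  have hb0 : ((b : ℤ) : ℝ) ≠ 0 := Int.cast_ne_zero.2 (nonZeroDivisors.coe_ne_zero b)
  have e : (fun i => (z i : ℝ)) =
      ((b : ℤ) : ℝ) • Pi.map (fun (_ : Fin m) (q : ℚ) => (q : ℝ)) q := funext fun i => by
    have := congrArg (fun t : ℚ => (t : ℝ)) (hz i)
    simpa using this
  have h0 : (0 : ℝ) ≤ (z ⬝ᵥ A *ᵥ z : ℤ) := by
    by_cases hz0 : z = 0
    · simp [hz0]
    · exact Int.cast_nonneg_iff.2 (h.pos z hz0).le
  rw [← rm_quad, e, mulVec_smul, dotProduct_smul, smul_dotProduct, smul_eq_mul, smul_eq_mul,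
    ← mul_assoc] at h0
  exact nonneg_of_mul_nonneg_right h0 (mul_self_pos.2 hb0)

theorem TAh_det (A : Matrix (Fin m) (Fin m) ℤ) : (rm A).det = (A.det : ℤ) :=
  ((Int.castRingHom ℝ).map_det A).symm

theorem Un.posDef (h : Un A w) : (rm A).PosDef := by
  have h1 : (rm A).PosSemidef := .of_dotProduct_mulVec_nonneg
    (IsHermitian.ext fun i j => by simp [rm, h.symm.apply i j]) fun x => by
      simpa using TAh_nonneg h x
  rw [h1.posDef_iff_det_ne_zero, TAh_det]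
  exact Int.cast_ne_zero.2 h.det.ne_zero

theorem Un.det_one (h : Un A w) : (rm A).det = 1 := by
  have h1 := h.posDef.det_pos
  rw [TAh_det] at h1 ⊢
  rcases Int.isUnit_iff.1 h.det with e | e
  · simp [e]
  · rw [e] at h1
    norm_num at h1

theorem Un.coer (h : Un A w) : ∃ c : ℝ, 0 < c ∧ ∀ x : Fin m → ℝ,
    c * ∑ i, x i ^ 2 ≤ x ⬝ᵥ rm A *ᵥ x := by
  obtain ⟨c, hc, h1⟩ : ∃ c : ℝ, 0 < c ∧ ∀ x ∈ Metric.sphere (0 : Fin m → ℝ) 1,
      c ≤ x ⬝ᵥ rm A *ᵥ x :=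
    (isCompact_sphere (0 : Fin m → ℝ) 1).exists_forall_le' (TAh_cont (rm A)).continuousOn
      fun x hx => by
        have h0 : x ≠ 0 := by
          rintro rfl
          simp at hx
        simpa using h.posDef.dotProduct_mulVec_pos h0
  refine ⟨c / (m + 1), by positivity, fun x => ?_⟩
  by_cases hx : x = 0
  · simp [hx]
  have hn : 0 < ‖x‖ := norm_pos_iff.2 hx
  have h2 := h1 (‖x‖⁻¹ • x) (by simp [norm_smul, hn.ne'])
  rw [mulVec_smul, dotProduct_smul, smul_dotProduct, smul_eq_mul, smul_eq_mul] at h2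
  have h3 : ∑ i, x i ^ 2 ≤ (m + 1) * ‖x‖ ^ 2 := by
    calc ∑ i, x i ^ 2 ≤ ∑ _i : Fin m, ‖x‖ ^ 2 := Finset.sum_le_sum fun i _ => by
          rw [← sq_abs]
          exact pow_le_pow_left₀ (abs_nonneg _) (norm_le_pi_norm x i) 2
      _ = m * ‖x‖ ^ 2 := by simp
      _ ≤ (m + 1) * ‖x‖ ^ 2 := by nlinarith [sq_nonneg ‖x‖]
  have h4 : c * ‖x‖ ^ 2 ≤ x ⬝ᵥ rm A *ᵥ x := by
    have := mul_le_mul_of_nonneg_right h2 (sq_nonneg ‖x‖)
    refine this.trans (le_of_eq ?_)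
    field_simp
  calc c / (m + 1) * ∑ i, x i ^ 2 ≤ c / (m + 1) * ((m + 1) * ‖x‖ ^ 2) :=
        mul_le_mul_of_nonneg_left h3 (by positivity)
    _ = c * ‖x‖ ^ 2 := by field_simp
    _ ≤ _ := h4

end Vale.Agent.P267T
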