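import Vale.Agent.P267T.TA

/-! Unimodular lattices: summability. -/

open Complex Matrix Real Filter Topology MeasureTheory

noncomputable section

namespace Vale.Agent.P267T

variable {m : ℕ} {A : Matrix (Fin m) (Fin m) ℤ} {w : Fin m → ℤ}

theorem TBh_nat {c : ℝ} (hc : 0 < c) (b : ℝ) :
    Summable fun n : ℕ => rexp (-c * ((n : ℝ) - b) ^ 2) := by
  have h := (Real.summable_exp_nat_mul_iff.2 (neg_lt_zero.2 hc)).mul_left (rexp (c * (b + 1 / 4)))
  refine h.of_nonneg_of_le (fun _ => (Real.exp_pos _).le) fun n => ?_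
  rw [← Real.exp_add]
  refine Real.exp_le_exp.2 ?_
  nlinarith [mul_nonneg hc.le (sq_nonneg ((n : ℝ) - b - 1 / 2))]

theorem TBh_int {c : ℝ} (hc : 0 < c) (b : ℝ) :
    Summable fun n : ℤ => rexp (-c * ((n : ℝ) - b) ^ 2) := by
  refine Summable.of_nat_of_neg (by simpa using TBh_nat hc b) ?_
  refine (TBh_nat hc (-b)).congr fun n => ?_
  congr 1
  push_cast
  ring

theorem TBh_pi : ∀ (m : ℕ) (f : Fin m → ℤ → ℝ), (∀ i x, 0 ≤ f i x) → (∀ i, Summable (f i)) →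
    Summable fun x : Fin m → ℤ => ∏ i, f i (x i)
  | 0, _, _, _ => Summable.of_finite
  | m + 1, f, h0, h => by
    have h1 := (h 0).mul_of_nonneg (TBh_pi m (fun i => f i.succ) (fun i => h0 _) fun i => h _)
      (h0 0) fun x => Finset.prod_nonneg fun i _ => h0 _ _
    rw [← (Fin.consEquiv fun _ : Fin (m + 1) => ℤ).summable_iff]
    refine h1.congr fun x => ?_
    simp [Fin.prod_univ_succ, Fin.consEquiv]

theorem summ_gauss {c : ℝ} (hc : 0 < c) (b : Fin m → ℝ) :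
    Summable fun x : Fin m → ℤ => rexp (-c * ∑ i, ((x i : ℝ) - b i) ^ 2) := by
  refine (TBh_pi m (fun i n => rexp (-c * ((n : ℝ) - b i) ^ 2)) (fun _ _ => (Real.exp_pos _).le)
    fun i => TBh_int hc (b i)).congr fun x => ?_
  rw [Finset.mul_sum, Real.exp_sum]

theorem Un.summ (h : Un A w) {t : ℝ} (ht : 0 < t) (b : Fin m → ℝ) :
    Summable fun x : Fin m → ℤ =>
      rexp (-t * (((fun i => (x i : ℝ)) - b) ⬝ᵥ rm A *ᵥ ((fun i => (x i : ℝ)) - b))) := by
  obtain ⟨c, hc, h1⟩ := h.coer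
  refine (summ_gauss (mul_pos ht hc) b).of_nonneg_of_le (fun _ => (Real.exp_pos _).le) fun x => ?_
  refine Real.exp_le_exp.2 ?_
  have h2 := mul_le_mul_of_nonneg_left (h1 ((fun i => (x i : ℝ)) - b)) ht.le
  simp only [Pi.sub_apply] at h2
  linarith

theorem Un.half (h : Un A w) (x : Fin m → ℤ) :
    ((fun i => (x i : ℝ)) - fun i => (w i : ℝ) / 2) ⬝ᵥ rm A *ᵥ
      ((fun i => (x i : ℝ)) - fun i => (w i : ℝ) / 2) =
      ((qf A x - x ⬝ᵥ A *ᵥ w : ℤ) : ℝ) + m / 4 := by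
  have e : (fun i => (w i : ℝ) / 2) = (1 / 2 : ℝ) • fun i => (w i : ℝ) := by
    funext i
    simp only [Pi.smul_apply, smul_eq_mul]
    ring
  have hs : w ⬝ᵥ A *ᵥ x = x ⬝ᵥ A *ᵥ w := by
    rw [dotProduct_mulVec, ← mulVec_transpose, h.symm.eq, dotProduct_comm]
  have hn : ((w ⬝ᵥ A *ᵥ w : ℤ) : ℝ) = m := by exact_mod_cast h.norm
  rw [e, mulVec_sub, mulVec_smul, sub_dotProduct, dotProduct_sub, dotProduct_sub, smul_dotProduct,
    dotProduct_smul, dotProduct_smul, smul_dotProduct, rm_quad, rm_quad, rm_quad, rm_quad, hs, hn]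
  simp only [qf, smul_eq_mul, Int.cast_sub]
  ring

theorem Un.summ_th (h : Un A w) {t : ℝ} (ht : 0 < t) :
    Summable fun x : Fin m → ℤ => rexp (-t * qf A x) := by
  refine (h.summ ht 0).congr fun x => ?_
  rw [sub_zero, rm_quad, qf]

theorem Un.summ_sh (h : Un A w) {t : ℝ} (ht : 0 < t) :
    Summable fun x : Fin m → ℤ => rexp (-t * ((qf A x - x ⬝ᵥ A *ᵥ w : ℤ) : ℝ)) := by
  refine ((h.summ ht fun i => (w i : ℝ) / 2).mul_left (rexp (t * (m / 4)))).congr fun x => ?_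
  rw [h.half, ← Real.exp_add]
  congr 1
  ring

end Vale.Agent.P267T
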