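import Vale.Agent.P267T.TB

/-! Unimodular lattices: holomorphy and periods. -/

open Complex Matrix Real Filter Topology MeasureTheory

noncomputable section

namespace Vale.Agent.P267T

variable {m : ℕ} {A : Matrix (Fin m) (Fin m) ℤ} {w : Fin m → ℤ}

theorem TCh_hol {ι : Type} {q : ι → ℝ} (h0 : ∀ x, 0 ≤ q x)
    (hs : ∀ t : ℝ, 0 < t → Summable fun x => rexp (-t * q x)) :
    DifferentiableOn ℂ (fun τ : ℂ => ∑' x, cexp (π * I * τ * q x)) HP := by
  intro τ hτ
  have hτ' : 0 < τ.im := hτ
  have ho : IsOpen {z : ℂ | τ.im / 2 < z.im} := isOpen_lt continuous_const continuous_im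
  have h1 := differentiableOn_tsum_of_summable_norm (F := fun x z => cexp (π * I * z * q x))
    (hs (π * (τ.im / 2)) (by positivity)) (fun x => by fun_prop) ho (fun x z hz => by
      have hz' : τ.im / 2 < z.im := hz
      rw [norm_exp]
      refine Real.exp_le_exp.2 ?_
      have e : (π * I * z * q x : ℂ).re = -(π * z.im) * q x := by simp
      rw [e]
      exact mul_le_mul_of_nonneg_right (neg_le_neg (mul_le_mul_of_nonneg_left hz'.le pi_pos.le))
        (h0 x))
  exact (h1.differentiableAt (ho.mem_nhds (half_lt_self hτ'))).differentiableWithinAt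

theorem Un.th_hol (h : Un A w) : DifferentiableOn ℂ (th A) HP := by
  refine (TCh_hol (q := fun x => (qf A x : ℝ)) (fun x => ?_) fun t ht => h.summ_th ht).congr
    fun τ _ => by simp only [th, ofReal_intCast]
  rcases eq_or_ne x 0 with rfl | hx
  · simp [qf]
  · exact_mod_cast (h.pos x hx).le

theorem Un.sh_hol (h : Un A w) : DifferentiableOn ℂ (sh A w) HP := by
  refine (TCh_hol (q := fun x => ((qf A x - x ⬝ᵥ A *ᵥ w : ℤ) : ℝ) + m / 4) (fun x => ?_)
    fun t ht => ?_).congr fun τ _ => ?_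
  · obtain ⟨n, hn⟩ := h.char x
    rw [hn]
    positivity
  · refine ((h.summ_sh ht).mul_right (rexp (-t * (m / 4)))).congr fun x => ?_
    rw [← Real.exp_add, mul_add]
  · simp only [sh, ofReal_add, ofReal_intCast, ofReal_div, ofReal_natCast, ofReal_ofNat]

theorem th_two (A : Matrix (Fin m) (Fin m) ℤ) (τ : ℂ) : th A (τ + 2) = th A τ := by
  refine tsum_congr fun x => ?_
  rw [show (π * I * (τ + 2) * qf A x : ℂ) = π * I * τ * qf A x + qf A x * (2 * π * I) by ring,
    Complex.exp_add, exp_int_mul_two_pi_mul_I, mul_one]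

theorem Un.sh_one (h : Un A w) (τ : ℂ) : sh A w (τ + 1) = cexp (π * I * m / 4) * sh A w τ := by
  rw [sh, sh, ← tsum_mul_left]
  refine tsum_congr fun x => ?_
  obtain ⟨n, hn⟩ := h.char x
  rw [hn, ← Complex.exp_add, show (π * I * (τ + 1) * (((2 * n : ℤ) : ℂ) + m / 4) : ℂ) =
    π * I * m / 4 + π * I * τ * (((2 * n : ℤ) : ℂ) + m / 4) + n * (2 * π * I) by push_cast; ring,
    Complex.exp_add _ (n * _), exp_nat_mul_two_pi_mul_I, mul_one]

end Vale.Agent.P267T
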