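import Vale.Agent.P267T.Defs

/-! Unimodular lattices: the Gaussian integral. -/

open Complex Matrix Real Filter Topology MeasureTheory

noncomputable section

namespace Vale.Agent.P267T

variable {m : ℕ} {A : Matrix (Fin m) (Fin m) ℤ} {w : Fin m → ℤ}

lemma TGh_dot (Y : Matrix (Fin m) (Fin m) ℝ) (x v : Fin m → ℝ) :
    x ⬝ᵥ (Yᵀ * Y) *ᵥ v = ∑ i, (Y *ᵥ x) i * (Y *ᵥ v) i := by
  rw [← Matrix.mulVec_mulVec, Matrix.dotProduct_mulVec, Matrix.vecMul_transpose]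
  rfl

lemma TGh_mp {Y : Matrix (Fin m) (Fin m) ℝ} (h : Y.det * Y.det = 1) :
    ∃ e : (Fin m → ℝ) ≃ᵐ (Fin m → ℝ), (∀ x, e x = Y *ᵥ x) ∧ MeasurePreserving e volume volume := by
  have h0 : Y.det ≠ 0 := left_ne_zero_of_mul_eq_one h
  have hu : IsUnit Y := (Matrix.isUnit_iff_isUnit_det Y).2 (Ne.isUnit h0)
  have hb : Function.Bijective (Matrix.toLin' Y) :=
    ⟨Matrix.mulVec_injective_iff_isUnit.2 hu, Matrix.mulVec_surjective_iff_isUnit.2 hu⟩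
  let L := (LinearEquiv.ofBijective (Matrix.toLin' Y) hb).toContinuousLinearEquiv
  refine ⟨L.toHomeomorph.toMeasurableEquiv, fun _ => rfl, L.continuous.measurable, ?_⟩
  have h1 := Real.map_matrix_volume_pi_eq_smul_volume_pi h0
  have h2 : |Y.det⁻¹| = 1 := by
    rcases mul_self_eq_one_iff.1 h with e | e <;> simp [e]
  rw [h2, ENNReal.ofReal_one, one_smul] at h1
  exact h1

open scoped MatrixOrder in
lemma TGh_sq {B : Matrix (Fin m) (Fin m) ℝ} (hB : B.PosDef) :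
    ∃ Y : Matrix (Fin m) (Fin m) ℝ, B = Yᵀ * Y := by
  obtain ⟨Y, hY⟩ := CStarAlgebra.nonneg_iff_eq_star_mul_self.mp hB.posSemidef.nonneg
  exact ⟨Y, by rw [hY, Matrix.star_eq_conjTranspose, Matrix.conjTranspose_eq_transpose_of_trivial]⟩

theorem gauss_int {B : Matrix (Fin m) (Fin m) ℝ} (hB : B.PosDef) (hd : B.det = 1) {a : ℂ}
    (ha : 0 < a.re) (v : Fin m → ℝ) :
    Integrable (fun x : Fin m → ℝ =>
      cexp (-π * a * (x ⬝ᵥ B *ᵥ x : ℝ) + 2 * π * I * (x ⬝ᵥ B *ᵥ v : ℝ))) ∧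
    ∫ x : Fin m → ℝ, cexp (-π * a * (x ⬝ᵥ B *ᵥ x : ℝ) + 2 * π * I * (x ⬝ᵥ B *ᵥ v : ℝ)) =
      (1 / a) ^ (m / 2 : ℂ) * cexp (-π / a * (v ⬝ᵥ B *ᵥ v : ℝ)) := by
  obtain ⟨Y, rfl⟩ := TGh_sq hB
  rw [Matrix.det_mul, Matrix.det_transpose] at hd
  obtain ⟨e, he, hp⟩ := TGh_mp hd
  have hb : 0 < ((π : ℂ) * a).re := by
    rw [Complex.re_ofReal_mul]
    exact mul_pos Real.pi_pos ha
  have a0 : a ≠ 0 := fun h => by simp [h] at ha
  have p0 : (π : ℂ) ≠ 0 := Complex.ofReal_ne_zero.2 Real.pi_ne_zero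
  have k : (fun x : Fin m → ℝ => cexp (-π * a * (x ⬝ᵥ (Yᵀ * Y) *ᵥ x : ℝ) +
      2 * π * I * (x ⬝ᵥ (Yᵀ * Y) *ᵥ v : ℝ))) = fun x => (fun u : Fin m → ℝ =>
      cexp (-(π * a) * ∑ i, (u i : ℂ) ^ 2 + ∑ i, (2 * π * I * ((Y *ᵥ v) i : ℝ)) * u i)) (e x) := by
    funext x
    rw [TGh_dot, TGh_dot, he]
    refine congrArg cexp (congrArg₂ (· + ·) ?_ ?_)
    · push_cast
      simp only [sq, neg_mul]
    · push_cast
      rw [Finset.mul_sum]
      exact Finset.sum_congr rfl fun i _ => by ring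
  rw [k]
  refine ⟨(hp.integrable_comp_emb e.measurableEmbedding).2
    (GaussianFourier.integrable_cexp_neg_mul_sum_add hb _), ?_⟩
  refine (hp.integral_comp' fun u : Fin m → ℝ => cexp (-(π * a) * ∑ i, (u i : ℂ) ^ 2 +
    ∑ i, (2 * π * I * ((Y *ᵥ v) i : ℝ)) * u i)).trans ?_
  rw [GaussianFourier.integral_cexp_neg_mul_sum_add hb, Fintype.card_fin, TGh_dot]
  refine congrArg₂ (· * ·) (congrArg (· ^ (m / 2 : ℂ)) (by field_simp)) (congrArg cexp ?_)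
  push_cast
  rw [Finset.sum_div, Finset.mul_sum]
  refine Finset.sum_congr rfl fun i _ => ?_
  field_simp
  rw [I_sq]
  ring

end Vale.Agent.P267T
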