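import Vale.Agent.P267T.Defs

/-! Unimodular lattices: the Poisson summation formula. -/

open Complex Matrix Real Filter Topology MeasureTheory

noncomputable section

namespace Vale.Agent.P267T

variable {m : ℕ} {A : Matrix (Fin m) (Fin m) ℤ} {w : Fin m → ℤ}

/-- The translated boxes. -/
def TPh_D (k : Fin m → ℤ) : Set (Fin m → ℝ) := {x | ∀ i, x i ∈ Set.Ioc (k i : ℝ) (k i + 1)}

theorem TPh_meas (k : Fin m → ℤ) : MeasurableSet (TPh_D k) := by
  unfold TPh_D
  rw [Set.ofPred_forall]
  exact MeasurableSet.iInter fun i => measurable_pi_apply i measurableSet_Ioc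

theorem TPh_unf {E : Type} [NormedAddCommGroup E] [NormedSpace ℝ E] {g : (Fin m → ℝ) → E}
    (hg : Integrable g) : HasSum (fun k : Fin m → ℤ =>
      ∫ x in TPh_D 0, g (x + fun i => (k i : ℝ))) (∫ x, g x) := by
  have hu : ⋃ k : Fin m → ℤ, TPh_D k = Set.univ := by
    refine Set.eq_univ_of_forall fun x => Set.mem_iUnion.2 ⟨fun i => ⌈x i⌉ - 1, fun i => ?_⟩
    have h1 := Int.le_ceil (x i)
    have h2 := Int.ceil_lt_add_one (x i)
    push_cast
    constructor <;> linarith
  have hd : Pairwise (Function.onFun Disjoint (TPh_D (m := m))) := by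
    intro k l hkl
    refine Set.disjoint_left.2 fun x hk hl => hkl (funext fun i => ?_)
    have h1 : k i < l i + 1 := by exact_mod_cast (hk i).1.trans_le (hl i).2
    have h2 : l i < k i + 1 := by exact_mod_cast (hl i).1.trans_le (hk i).2
    omega
  have h := hasSum_integral_iUnion TPh_meas hd hg.integrableOn
  rw [hu, Measure.restrict_univ] at h
  refine h.congr_fun fun k => ?_
  rw [← (measurePreserving_add_right volume fun i => (k i : ℝ)).setIntegral_preimage_emb
    (measurableEmbedding_addRight _) g (TPh_D k)]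
  congr 2
  ext x
  simp only [TPh_D, Set.mem_ofPred_eq, Set.mem_preimage, Pi.add_apply, Pi.zero_apply,
    Int.cast_zero, Set.mem_Ioc, zero_add, add_comm (x _),
    add_le_add_iff_left, lt_add_iff_pos_right]

theorem TPh_e (n : Fin m → ℤ) (x : Fin m → ℝ) :
    UnitAddTorus.mFourier (-n) (fun i => (x i : UnitAddCircle)) =
      cexp (-(2 * π * I * ∑ i, (n i : ℂ) * x i)) := by
  simp only [UnitAddTorus.mFourier, ContinuousMap.coe_mk, fourier_coe_apply, ← Complex.exp_sum,
    Pi.neg_apply, Finset.mul_sum, ← Finset.sum_neg_distrib]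
  congr 1
  refine Finset.sum_congr rfl fun i _ => ?_
  push_cast
  ring

theorem TPh_per (x : Fin m → ℝ) (k : Fin m → ℤ) :
    (fun i => (((x + fun i => (k i : ℝ)) i : ℝ) : UnitAddCircle)) =
      fun i => (x i : UnitAddCircle) := by
  funext i
  refine (QuotientAddGroup.eq.2 (AddSubgroup.mem_zmultiples_iff.2 ⟨k i, ?_⟩)).symm
  simp

theorem poisson {f : (Fin m → ℝ) → ℂ} (hc : Continuous f) (hi : Integrable f)
    (hb : ∀ R : ℝ, ∃ u : (Fin m → ℤ) → ℝ, Summable u ∧ ∀ (k : Fin m → ℤ) (x : Fin m → ℝ),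
      ‖x‖ ≤ R → ‖f (x + fun i => (k i : ℝ))‖ ≤ u k)
    (hs : Summable fun n : Fin m → ℤ =>
      ∫ x : Fin m → ℝ, cexp (-(2 * π * I * ∑ i, (n i : ℂ) * x i)) * f x) :
    ∑' k : Fin m → ℤ, f (fun i => (k i : ℝ)) = ∑' n : Fin m → ℤ,
      ∫ x : Fin m → ℝ, cexp (-(2 * π * I * ∑ i, (n i : ℂ) * x i)) * f x := by
  let P : (Fin m → ℝ) → ℂ := fun x => ∑' k : Fin m → ℤ, f (x + fun i => (k i : ℝ))
  have hP : Continuous P := by
    refine continuous_iff_continuousAt.2 fun x => ?_
    obtain ⟨u, hu, h⟩ := hb (‖x‖ + 1)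
    refine (continuousOn_tsum (s := Metric.ball 0 (‖x‖ + 1))
      (fun k => (hc.comp (continuous_add_const _)).continuousOn) hu
      fun k y hy => h k y (mem_ball_zero_iff.1 hy).le).continuousAt ?_
    exact Metric.isOpen_ball.mem_nhds (mem_ball_zero_iff.2 (lt_add_one _))
  have hper : ∀ (x : Fin m → ℝ) (l : Fin m → ℤ), P (x + fun i => (l i : ℝ)) = P x := by
    intro x l
    refine Eq.trans (tsum_congr fun k => ?_) ((Equiv.addLeft l).tsum_eq
      fun k : Fin m → ℤ => f (x + fun i => (k i : ℝ)))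
    congr 1
    funext i
    simp [add_assoc]
  have hq : IsOpenQuotientMap fun (x : Fin m → ℝ) i => (x i : UnitAddCircle) :=
    IsOpenQuotientMap.piMap fun _ => QuotientAddGroup.isOpenQuotientMap_mk
  have hF : ∀ x : Fin m → ℝ,
      P (Function.surjInv hq.surjective fun i => (x i : UnitAddCircle)) = P x := by
    intro x
    have h1 := Function.surjInv_eq hq.surjective fun i => (x i : UnitAddCircle)
    choose k hk using fun i =>
      AddSubgroup.mem_zmultiples_iff.1 (QuotientAddGroup.eq.1 (congrFun h1 i).symm)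
    rw [← hper x k]
    congr 1
    funext i
    have h2 := hk i
    rw [zsmul_eq_mul, mul_one] at h2
    rw [Pi.add_apply, h2, add_neg_cancel_left]
  let F : C(UnitAddTorus (Fin m), ℂ) := ⟨fun z => P (Function.surjInv hq.surjective z),
    hq.isQuotientMap.continuous_iff.2 (hP.congr fun x => (hF x).symm)⟩
  have hco : ∀ n, UnitAddTorus.mFourierCoeff F n =
      ∫ x : Fin m → ℝ, cexp (-(2 * π * I * ∑ i, (n i : ℂ) * x i)) * f x := by
    intro n
    have hg : Integrable fun x : Fin m → ℝ =>
        cexp (-(2 * π * I * ∑ i, (n i : ℂ) * x i)) * f x := by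
      refine hi.mono (Continuous.aestronglyMeasurable (by fun_prop))
        (Eventually.of_forall fun x => ?_)
      rw [← TPh_e, norm_mul]
      exact mul_le_of_le_one_left (norm_nonneg _)
        ((ContinuousMap.norm_coe_le_norm _ _).trans_eq UnitAddTorus.mFourier_norm)
    have h1 := hasSum_integral_of_summable_integral_norm
      (fun k : Fin m → ℤ => (hg.comp_add_right fun i => (k i : ℝ)).integrableOn (s := TPh_D 0))
      (TPh_unf hg.norm).summable
    rw [← h1.unique (TPh_unf hg), UnitAddTorus.mFourierCoeff_eq_integral F n fun _ => ((0 : ℤ) : ℝ)]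
    refine integral_congr_ae (Eventually.of_forall fun x => ?_)
    simp only [← TPh_e, TPh_per, tsum_mul_left, smul_eq_mul]
    exact congrArg _ (hF x)
  have h := UnitAddTorus.hasSum_mFourier_series_apply_of_summable (f := F) (by rwa [funext hco])
    fun i => (((0 : Fin m → ℝ) i : ℝ) : UnitAddCircle)
  have h0 : ∀ n : Fin m → ℤ, UnitAddTorus.mFourier n
      (fun i => (((0 : Fin m → ℝ) i : ℝ) : UnitAddCircle)) = 1 := by
    intro n
    rw [← neg_neg n, TPh_e]
    simp
  simp only [h0, hco, smul_eq_mul, mul_one] at h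
  rw [h.tsum_eq]
  refine Eq.trans ?_ (hF 0).symm
  simp only [P, zero_add]

end Vale.Agent.P267T
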