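import Vale.Agent.P267T.TB
import Vale.Agent.P267T.TP
import Vale.Agent.P267T.TG

/-! Unimodular lattices: the transformation formula. -/

open Complex Matrix Real Filter Topology MeasureTheory

noncomputable section

namespace Vale.Agent.P267T

variable {m : ℕ} {A : Matrix (Fin m) (Fin m) ℤ} {w : Fin m → ℤ}

theorem TFh_bij (h : Un A w) : Function.Bijective fun y : Fin m → ℤ => A *ᵥ y := by
  have hu : IsUnit A := (Matrix.isUnit_iff_isUnit_det A).2 h.det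
  exact ⟨Matrix.mulVec_injective_of_isUnit hu, Matrix.mulVec_surjective_iff_isUnit.2 hu⟩

theorem TFh_neg (B : Matrix (Fin m) (Fin m) ℝ) (u v : Fin m → ℝ) :
    (u - v) ⬝ᵥ B *ᵥ (u - v) = (v - u) ⬝ᵥ B *ᵥ (v - u) := by
  rw [← neg_sub v u, mulVec_neg, neg_dotProduct_neg]

theorem TFh_sum (y : Fin m → ℤ) (x : Fin m → ℝ) :
    ∑ i, (((A *ᵥ y) i : ℤ) : ℂ) * x i = (x ⬝ᵥ rm A *ᵥ (fun i => (y i : ℝ)) : ℝ) := by
  simp only [dotProduct, mulVec, rm, map_apply]
  push_cast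
  exact Finset.sum_congr rfl fun i _ => mul_comm _ _

theorem TFh_norm (a : ℂ) (r s : ℝ) :
    ‖cexp (-π * a * r + 2 * π * I * s)‖ = rexp (-(π * a.re) * r) := by
  rw [Complex.norm_exp]
  congr 1
  simp

theorem Un.fe (h : Un A w) {a : ℂ} (ha : 0 < a.re) (b : Fin m → ℝ) :
    ∑' x : Fin m → ℤ, cexp (-π * a * qf A x +
      2 * π * I * ((fun i => (x i : ℝ)) ⬝ᵥ rm A *ᵥ b : ℝ)) =
    (1 / a) ^ (m / 2 : ℂ) * ∑' y : Fin m → ℤ, cexp (-π / a *
      (((fun i => (y i : ℝ)) - b) ⬝ᵥ rm A *ᵥ ((fun i => (y i : ℝ)) - b) : ℝ)) := by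
  let f : (Fin m → ℝ) → ℂ := fun x =>
    cexp (-π * a * (x ⬝ᵥ rm A *ᵥ x : ℝ) + 2 * π * I * (x ⬝ᵥ rm A *ᵥ b : ℝ))
  let e : (Fin m → ℤ) ≃ (Fin m → ℤ) := Equiv.ofBijective _ (TFh_bij h)
  have hF : ∀ y : Fin m → ℤ,
      ∫ x : Fin m → ℝ, cexp (-(2 * π * I * ∑ i, (e y i : ℂ) * x i)) * f x =
        (1 / a) ^ (m / 2 : ℂ) * cexp (-π / a *
          (((fun i => (y i : ℝ)) - b) ⬝ᵥ rm A *ᵥ ((fun i => (y i : ℝ)) - b) : ℝ)) := fun y => by
    rw [TFh_neg, ← (gauss_int h.posDef h.det_one ha (b - fun i => (y i : ℝ))).2]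
    refine integral_congr_ae (ae_of_all _ fun x => ?_)
    have e1 : ∑ i, (e y i : ℂ) * x i = (x ⬝ᵥ rm A *ᵥ (fun i => (y i : ℝ)) : ℝ) := TFh_sum y x
    simp only [f, e1, ← Complex.exp_add, mulVec_sub, dotProduct_sub]
    congr 1
    push_cast
    ring
  have ha' : 0 < (1 / a).re := by
    rw [one_div, Complex.inv_re]
    exact div_pos ha (Complex.normSq_pos.2 fun h0 => by simp [h0] at ha)
  have hS : Summable fun y : Fin m → ℤ => cexp (-π / a *
      (((fun i => (y i : ℝ)) - b) ⬝ᵥ rm A *ᵥ ((fun i => (y i : ℝ)) - b) : ℝ)) := by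
    refine Summable.of_norm ((h.summ (mul_pos Real.pi_pos ha') b).congr fun y => ?_)
    rw [← TFh_norm (1 / a) _ 0]
    congr 2
    push_cast
    ring
  have hc : Continuous f := by
    simp only [f, dotProduct, mulVec]
    fun_prop
  obtain ⟨c, c0, c1⟩ := h.coer
  have t0 : 0 < π * a.re * c := mul_pos (mul_pos Real.pi_pos ha) c0
  have h1 := poisson hc (gauss_int h.posDef h.det_one ha b).1 (fun R => ⟨fun k =>
      rexp (π * a.re * c * (m * R ^ 2)) * rexp (-(π * a.re * c / 2) *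
        ∑ i, ((k i : ℝ) - (0 : Fin m → ℝ) i) ^ 2),
      (summ_gauss (half_pos t0) 0).mul_left _, fun k x hx => ?_⟩)
    ((e.summable_iff).1 ((hS.mul_left ((1 / a) ^ (m / 2 : ℂ))).congr fun y => (hF y).symm))
  · rw [← e.tsum_eq fun n : Fin m → ℤ =>
      ∫ x : Fin m → ℝ, cexp (-(2 * π * I * ∑ i, (n i : ℂ) * x i)) * f x,
      tsum_congr hF, tsum_mul_left] at h1
    rw [← h1]
    refine tsum_congr fun x => ?_
    simp only [f, rm_quad, qf, Complex.ofReal_intCast]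
  · simp only [f]
    rw [TFh_norm, ← Real.exp_add]
    refine Real.exp_le_exp.2 ?_
    have h2 := mul_le_mul_of_nonneg_left (c1 (x + fun i => (k i : ℝ)))
      (mul_pos Real.pi_pos ha).le
    have h3 : ∑ i, ((k i : ℝ) ^ 2 / 2 - R ^ 2) ≤ ∑ i, (x + fun i => (k i : ℝ)) i ^ 2 :=
      Finset.sum_le_sum fun i _ => by
        have h4 : |x i| ≤ R := (norm_le_pi_norm x i).trans hx
        have h5 := sq_le_sq' (abs_le.1 h4).1 (abs_le.1 h4).2
        simp only [Pi.add_apply]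
        nlinarith [sq_nonneg (2 * x i + k i)]
    rw [Finset.sum_sub_distrib, ← Finset.sum_div, Finset.sum_const, Finset.card_univ,
      Fintype.card_fin, nsmul_eq_mul] at h3
    have h6 := mul_le_mul_of_nonneg_left h3 t0.le
    simp only [Pi.zero_apply, sub_zero]
    nlinarith

end Vale.Agent.P267T
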