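import Vale.Agent.P267T.Defs

/-! Unimodular lattices: modular forms of level one. -/

open Complex Matrix Real Filter Topology MeasureTheory

noncomputable section

namespace Vale.Agent.P267T

variable {m : ℕ} {A : Matrix (Fin m) (Fin m) ℤ} {w : Fin m → ℤ}

section
open UpperHalfPlane ModularForm Asymptotics
open scoped MatrixGroups Manifold

theorem TMh_slash (k : ℕ) {f : ℍ → ℂ} {γ : SL(2, ℤ)}
    (h : ∀ z, f (γ • z) = denom γ z ^ (12 * k) * f z)
    (hD : discriminant ∣[(12 : ℤ)] γ = discriminant) :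
    (fun z => f z / discriminant z ^ (k + 1)) ∣[(-12 : ℤ)] γ =
      fun z => f z / discriminant z ^ (k + 1) := by
  funext z
  have h0 : denom γ z ≠ 0 := denom_ne_zero _ z
  have h1 := congrFun hD z
  have h2 := discriminant_ne_zero (γ • z)
  rw [SL_slash_apply] at h1 ⊢
  rw [h, ← h1, neg_neg, _root_.zpow_neg, zpow_ofNat, mul_pow, inv_pow]
  generalize denom γ z = d at *
  field_simp
  ring

theorem TMh_main (k : ℕ) {f : ℍ → ℂ} (hf : MDifferentiable 𝓘(ℂ) 𝓘(ℂ) f)
    (hS : ∀ z, f (ModularGroup.S • z) = denom ModularGroup.S z ^ (12 * k) * f z)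
    (hT : ∀ z, f (ModularGroup.T • z) = denom ModularGroup.T z ^ (12 * k) * f z)
    (hb : f =O[atImInfty] fun z => discriminant z ^ (k + 1)) (z : ℍ) : f z = 0 := by
  have key := SlashInvariantForm.slash_action_generators_SL2Z
    (TMh_slash k hS discriminant_S_invariant) (TMh_slash k hT discriminant_T_invariant)
  have h0 : ∀ z, discriminant z ^ (k + 1) ≠ 0 := fun z => pow_ne_zero _ (discriminant_ne_zero z)
  let G : ModularForm 𝒮ℒ (-12) :=
    { toFun z := f z / discriminant z ^ (k + 1)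
      slash_action_eq' := fun _ ⟨γ, hγ⟩ => hγ ▸ key γ
      holo' := hf.div (CuspForm.discriminant.holo'.pow (k + 1)) h0
      bdd_at_cusps' {c} hc := by
        rw [Subgroup.IsArithmetic.isCusp_iff_isCusp_SL2Z] at hc
        rw [OnePoint.isBoundedAt_iff_forall_SL2Z hc]
        intro γ _
        rw [key γ, IsBoundedAtImInfty, BoundedAtFilter]
        exact (div_isBoundedUnder_of_isBigO hb).isBigO_one ℝ }
  exact (div_eq_zero_iff.1 (congrFun (ModularFormClass.levelOne_neg_weight_eq_zero (by norm_num) G)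
    z)).resolve_right (h0 z)

end

theorem level_one (k : ℕ) {F : ℂ → ℂ} (hF : DifferentiableOn ℂ F HP)
    (h1 : ∀ τ ∈ HP, F (τ + 1) = F τ) (h2 : ∀ τ ∈ HP, F (-1 / τ) = τ ^ (12 * k) * F τ) {C : ℝ}
    (h3 : ∀ τ : ℂ, 1 ≤ τ.im → ‖F τ‖ ≤ C * rexp (-2 * π * (k + 1) * τ.im)) :
    ∀ τ ∈ HP, F τ = 0 := by
  intro τ hτ
  refine TMh_main k (f := fun z => F z) ?_ (fun z => ?_) (fun z => ?_) ?_ ⟨τ, hτ⟩
  · exact UpperHalfPlane.mdifferentiable_iff.2 (hF.congr fun z hz => by
      simp [UpperHalfPlane.ofComplex_apply_of_im_pos hz])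
  · rw [ModularGroup.denom_S, ← h2 z z.2, UpperHalfPlane.modular_S_smul]
    simp [neg_div, inv_neg]
  · have e : UpperHalfPlane.denom ModularGroup.T z = 1 := by
      rw [ModularGroup.denom_apply]
      simp [ModularGroup.T]
    rw [e, one_pow, one_mul, ← h1 z z.2, UpperHalfPlane.modular_T_smul]
    simp [add_comm]
  · refine Asymptotics.IsBigO.trans (.of_bound C ?_)
      (ModularForm.exp_isBigO_discriminant.pow (k + 1))
    refine (UpperHalfPlane.atImInfty_mem _).2 ⟨1, fun z hz => (h3 z hz).trans_eq ?_⟩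
    rw [Real.norm_of_nonneg (by positivity), ← Real.exp_nat_mul, UpperHalfPlane.coe_im]
    congr 2
    push_cast
    ring

end Vale.Agent.P267T
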